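import Vale.Agent.Lib.P048.SlopeAll

/-- For `n ≥ 2`, `m ≥ 3` and `8 n ≤ 5 m + 5` every graph on at least `(m-1)(n-1)+1` vertices has an
independent set of `n` vertices or a cycle of length exactly `m`. -/
theorem Vale.Agent.Results.P048.A00_slope.result {V : Type*} [Fintype V] (m n : ℕ) (hn : 2 ≤ n)
    (hm3 : 3 ≤ m) (hm : 8 * n ≤ 5 * m + 5) (G : SimpleGraph V)
    (hcard : (m - 1) * (n - 1) + 1 ≤ Fintype.card V) :
    (∃ s : Finset V, s.card = n ∧ G.IsIndepSet (s : Set V)) ∨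
      ∃ (v : V) (w : G.Walk v v), w.IsCycle ∧ w.length = m :=
  Vale.Agent.Lib.P048.final_85b m n hn hm3 hm G hcard
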