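import Vale.Agent.Lib.P048.Main

/-- For `n ≥ 2` and `m ≥ 3n - 2`, every graph on at least `(m-1)(n-1)+1` vertices has an
independent set of `n` vertices or a cycle of length exactly `m`. -/
theorem Vale.Agent.Results.P048.A_linear.result {V : Type*} [Fintype V] (m n : ℕ) (hn : 2 ≤ n)
    (hm : 3 * n ≤ m + 2) (G : SimpleGraph V)
    (hcard : (m - 1) * (n - 1) + 1 ≤ Fintype.card V) :
    (∃ s : Finset V, s.card = n ∧ G.IsIndepSet (s : Set V)) ∨
      ∃ (v : V) (w : G.Walk v v), w.IsCycle ∧ w.length = m :=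
  Vale.Agent.Lib.P048.final m n hn hm G hcard
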